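import Mathlib
import Crest.Prelude.Def_PolyominoGame

/-!
# Certificate checker for the Snaky Maker–Breaker game

A proof tree `PT`: a node says "Maker claims cell `c`" and lists subtrees; Breaker's reply `r`
selects the first subtree whose support (set of cells it may still want) avoids `r`.
Checking: the intersection of the supports of all subtrees of a node is empty, so a subtree always
exists.  Everything is on cell indices (a bijection ℤ × ℤ ≃ ℕ), masks are natural numbers.
-/

set_option autoImplicit false

namespace Crest.Agent.S0047Lib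

open Crest.CombinatoricsR.PolyominoGame

/-! ### Cell indices -/

/-- Bijection ℤ → ℕ. -/
def encI : ℤ → ℕ
  | .ofNat n => 2 * n
  | .negSucc n => 2 * n + 1

/-- Inverse of `encI`. -/
def decI (n : ℕ) : ℤ := if n % 2 = 0 then Int.ofNat (n / 2) else Int.negSucc (n / 2)

theorem decI_encI (z : ℤ) : decI (encI z) = z := by
  cases z with
  | ofNat n =>
    have h1 : (2 * n) % 2 = 0 := by omega
    have h2 : (2 * n) / 2 = n := by omega
    show decI (2 * n) = _
    unfold decI
    rw [if_pos h1, h2]
  | negSucc n =>
    have h1 : ¬ (2 * n + 1) % 2 = 0 := by omega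
    have h2 : (2 * n + 1) / 2 = n := by omega
    show decI (2 * n + 1) = _
    unfold decI
    rw [if_neg h1, h2]

theorem encI_decI (n : ℕ) : encI (decI n) = n := by
  unfold decI
  split_ifs with h
  · simp only [encI]; omega
  · simp only [encI]; omega

/-- The index of a cell. -/
def idx (p : ℤ × ℤ) : ℕ := Nat.pair (encI p.1) (encI p.2)

/-- The cell of an index. -/
def cell (i : ℕ) : ℤ × ℤ := (decI (Nat.unpair i).1, decI (Nat.unpair i).2)

theorem cell_idx (p : ℤ × ℤ) : cell (idx p) = p := by
  simp [cell, idx, decI_encI]

theorem idx_cell (i : ℕ) : idx (cell i) = i := by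
  simp [cell, idx, encI_decI]

theorem cell_injective : Function.Injective cell := by
  intro a b h
  have := congrArg idx h
  simpa [idx_cell] using this

/-! ### Proof trees -/

mutual
  /-- A proof tree. `leaf c j`: Maker claims `c` completing the copy number `j` of the table.
  `node c f r`: Maker claims `c`, then the reply selects a subtree among `f` and the list `r`. -/
  inductive PT : Type where
    | leaf (c j : ℕ) : PT
    | node (c : ℕ) (f : PT) (r : PL) : PT
  /-- Lists of proof trees. -/
  inductive PL : Type where
    | nil : PL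
    | cons (t : PT) (r : PL) : PL
end

/-- The six cells of Snaky as a list. -/
def snakyL : List (ℤ × ℤ) := [(0, 0), (1, 0), (2, 0), (3, 0), (3, 1), (4, 1)]

theorem mem_snakyL {p : ℤ × ℤ} : p ∈ snaky ↔ p ∈ snakyL := by
  simp [snaky, snakyL]

/-- The cell of the copy given by the orientation data and a Snaky cell. -/
def copyCell (tx ty e1 e2 : ℤ) (sw : Bool) (p : ℤ × ℤ) : ℤ × ℤ :=
  if sw then (tx + e1 * p.2, ty + e2 * p.1) else (tx + e1 * p.1, ty + e2 * p.2)

/-- A table of masks of copies of Snaky. -/
inductive MT : Type where
  | tip (m : ℕ) (tx ty e1 e2 : ℤ) (sw : Bool) : MT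
  | bin (l r : MT) : MT

/-- Lookup by the bits of the index. -/
noncomputable def MT.get (t : MT) : ℕ → ℕ :=
  MT.rec (motive := fun _ => ℕ → ℕ)
    (fun m _ _ _ _ _ _ => m)
    (fun _ _ ihl ihr j =>
      Nat.rec (ihl (Nat.div j 2)) (fun _ _ => ihr (Nat.div j 2)) (Nat.land j 1))
    t

/-- The mask `m` contains a copy of Snaky. -/
def CopyMask (m : ℕ) : Prop :=
  ∃ (tx ty e1 e2 : ℤ) (sw : Bool), (e1 = 1 ∨ e1 = -1) ∧ (e2 = 1 ∨ e2 = -1) ∧
    ∀ p ∈ snakyL, m.testBit (idx (copyCell tx ty e1 e2 sw p)) = true

/-- Checks a table. -/
def MT.ok : MT → Bool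
  | .tip m tx ty e1 e2 sw =>
    (decide (e1 = 1 ∨ e1 = -1)) && (decide (e2 = 1 ∨ e2 = -1)) &&
      snakyL.all fun p => m.testBit (idx (copyCell tx ty e1 e2 sw p))
  | .bin l r => l.ok && r.ok

theorem MT.get_ok : ∀ (t : MT), t.ok = true → ∀ j, CopyMask (t.get j)
  | .tip m tx ty e1 e2 sw, h, _ => by
    simp only [MT.ok, Bool.and_eq_true, decide_eq_true_eq, List.all_eq_true] at h
    exact ⟨tx, ty, e1, e2, sw, h.1.1, h.1.2, h.2⟩
  | .bin l r, h, j => by
    simp only [MT.ok, Bool.and_eq_true] at h
    have hl := MT.get_ok l h.1
    have hr := MT.get_ok r h.2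
    show CopyMask (Nat.rec (l.get (Nat.div j 2)) (fun _ _ => r.get (Nat.div j 2)) (Nat.land j 1))
    cases hb : Nat.land j 1 with
    | zero => exact hl _
    | succ n => exact hr _

/-- The kernel-friendly checker.  For a tree: `M` is the mask of Maker's stones, `n` the budget
of claims; returns `0` on failure and support + 1 otherwise. -/
noncomputable def chkT (tab : MT) (t : PT) : ℕ → ℕ → ℕ :=
  PT.rec (motive_1 := fun _ => ℕ → ℕ → ℕ) (motive_2 := fun _ => ℕ → ℕ → ℕ → ℕ → ℕ)
    -- leaf
    (fun c j M n =>
      Nat.rec 0 (fun _ _ =>
        Nat.rec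
          (Bool.rec 0 (Nat.succ (Nat.shiftLeft 1 c))
            (Nat.beq (Nat.land (Nat.lor M (Nat.shiftLeft 1 c)) (tab.get j)) (tab.get j)))
          (fun _ _ => 0)
          (Nat.land (Nat.shiftRight M c) 1)) n)
    -- node
    (fun c _ _ ihf ihr M n =>
      Nat.rec 0 (fun n' _ =>
        Nat.rec
          (Nat.rec (Nat.rec 0 (fun s _ => Nat.rec 0 (fun u _ => Nat.succ (Nat.lor u (Nat.shiftLeft 1 c)))
              (ihr 0 n' s s)) (ihf 0 n'))
            (fun M' _ => Nat.rec 0 (fun s _ => Nat.rec 0 (fun u _ => Nat.succ (Nat.lor u (Nat.shiftLeft 1 c)))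
              (ihr (Nat.succ M') n' s s)) (ihf (Nat.succ M') n'))
            (Nat.lor M (Nat.shiftLeft 1 c)))
          (fun _ _ => 0)
          (Nat.land (Nat.shiftRight M c) 1)) n)
    -- nil
    (fun _ _ I U => Nat.rec (Nat.succ U) (fun _ _ => 0) I)
    -- cons
    (fun _ _ iht ihr M n I U =>
      Nat.rec 0
        (fun s _ =>
          Nat.rec
            (Nat.rec (ihr M n 0 0) (fun U' _ => ihr M n 0 (Nat.succ U')) (Nat.lor U s))
            (fun I' _ => Nat.rec (ihr M n (Nat.succ I') 0) (fun U' _ => ihr M n (Nat.succ I') (Nat.succ U')) (Nat.lor U s))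
            (Nat.land I s))
        (iht M n))
    t

/-- The list part of the checker. -/
noncomputable def chkL (tab : MT) (r : PL) : ℕ → ℕ → ℕ → ℕ → ℕ :=
  PL.rec (motive_1 := fun _ => ℕ → ℕ → ℕ) (motive_2 := fun _ => ℕ → ℕ → ℕ → ℕ → ℕ)
    (fun c j M n =>
      Nat.rec 0 (fun _ _ =>
        Nat.rec
          (Bool.rec 0 (Nat.succ (Nat.shiftLeft 1 c))
            (Nat.beq (Nat.land (Nat.lor M (Nat.shiftLeft 1 c)) (tab.get j)) (tab.get j)))
          (fun _ _ => 0)
          (Nat.land (Nat.shiftRight M c) 1)) n)
    (fun c _ _ ihf ihr M n =>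
      Nat.rec 0 (fun n' _ =>
        Nat.rec
          (Nat.rec (Nat.rec 0 (fun s _ => Nat.rec 0 (fun u _ => Nat.succ (Nat.lor u (Nat.shiftLeft 1 c)))
              (ihr 0 n' s s)) (ihf 0 n'))
            (fun M' _ => Nat.rec 0 (fun s _ => Nat.rec 0 (fun u _ => Nat.succ (Nat.lor u (Nat.shiftLeft 1 c)))
              (ihr (Nat.succ M') n' s s)) (ihf (Nat.succ M') n'))
            (Nat.lor M (Nat.shiftLeft 1 c)))
          (fun _ _ => 0)
          (Nat.land (Nat.shiftRight M c) 1)) n)
    (fun _ _ I U => Nat.rec (Nat.succ U) (fun _ _ => 0) I)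
    (fun _ _ iht ihr M n I U =>
      Nat.rec 0
        (fun s _ =>
          Nat.rec
            (Nat.rec (ihr M n 0 0) (fun U' _ => ihr M n 0 (Nat.succ U')) (Nat.lor U s))
            (fun I' _ => Nat.rec (ihr M n (Nat.succ I') 0) (fun U' _ => ihr M n (Nat.succ I') (Nat.succ U')) (Nat.lor U s))
            (Nat.land I s))
        (iht M n))
    r

theorem chkT_leaf (tab : MT) (c j M n : ℕ) : chkT tab (.leaf c j) M n =
    Nat.rec 0 (fun _ _ =>
        Nat.rec
          (Bool.rec 0 (Nat.succ (Nat.shiftLeft 1 c))
            (Nat.beq (Nat.land (Nat.lor M (Nat.shiftLeft 1 c)) (tab.get j)) (tab.get j)))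
          (fun _ _ => 0)
          (Nat.land (Nat.shiftRight M c) 1)) n := rfl

theorem chkT_node (tab : MT) (c : ℕ) (f : PT) (r : PL) (M n : ℕ) : chkT tab (.node c f r) M n =
      Nat.rec 0 (fun n' _ =>
        Nat.rec
          (Nat.rec (Nat.rec 0 (fun s _ => Nat.rec 0 (fun u _ => Nat.succ (Nat.lor u (Nat.shiftLeft 1 c)))
              (chkL tab r 0 n' s s)) (chkT tab f 0 n'))
            (fun M' _ => Nat.rec 0 (fun s _ => Nat.rec 0 (fun u _ => Nat.succ (Nat.lor u (Nat.shiftLeft 1 c)))
              (chkL tab r (Nat.succ M') n' s s)) (chkT tab f (Nat.succ M') n'))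
            (Nat.lor M (Nat.shiftLeft 1 c)))
          (fun _ _ => 0)
          (Nat.land (Nat.shiftRight M c) 1)) n := rfl

theorem chkL_nil (tab : MT) (M n I U : ℕ) : chkL tab .nil M n I U =
    Nat.rec (Nat.succ U) (fun _ _ => 0) I := rfl

theorem chkL_cons (tab : MT) (t : PT) (r : PL) (M n I U : ℕ) : chkL tab (.cons t r) M n I U =
      Nat.rec 0
        (fun s _ =>
          Nat.rec
            (Nat.rec (chkL tab r M n 0 0) (fun U' _ => chkL tab r M n 0 (Nat.succ U')) (Nat.lor U s))
            (fun I' _ => Nat.rec (chkL tab r M n (Nat.succ I') 0) (fun U' _ => chkL tab r M n (Nat.succ I') (Nat.succ U')) (Nat.lor U s))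
            (Nat.land I s))
        (chkT tab t M n) := rfl

theorem nrz {α : Type} (a : α) (f : ℕ → α → α) : (Nat.rec a f 0 : α) = a := rfl
theorem nrs {α : Type} (a : α) (f : ℕ → α → α) (n : ℕ) :
    (Nat.rec a f (n + 1) : α) = f n (Nat.rec a f n) := rfl
theorem brf {α : Type} (a b : α) : (Bool.rec a b false : α) = a := rfl
theorem brt {α : Type} (a b : α) : (Bool.rec a b true : α) = b := rfl

/-- Forcing in the kernel. -/
theorem rec_force {α : Type} (x : ℕ) (k : ℕ → α) :
    (Nat.rec (k 0) (fun m _ => k (Nat.succ m)) x : α) = k x := by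
  cases x <;> rfl

mutual
  /-- The support mask of a tree. -/
  def sup : PT → ℕ
    | .leaf c _ => 2 ^ c
    | .node c f r => supL r (sup f) ||| 2 ^ c
  /-- Union of `U` and of the supports of the list. -/
  def supL : PL → ℕ → ℕ
    | .nil, U => U
    | .cons t r, U => supL r (U ||| sup t)
end

/-- Intersection of `I` and of the supports of the list. -/
def interL : PL → ℕ → ℕ
  | .nil, I => I
  | .cons t r, I => interL r (I &&& sup t)

mutual
  /-- Semantic validity of a tree with respect to the mask of Maker's stones. -/
  def Good : PT → ℕ → Prop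
    | .leaf c _, M => M.testBit c = false ∧
      ∃ m, CopyMask m ∧ ∀ i, m.testBit i = true → (M ||| 2 ^ c).testBit i = true
    | .node c f r, M =>
      M.testBit c = false ∧ Good f (M ||| 2 ^ c) ∧ GoodL r (M ||| 2 ^ c) ∧ interL r (sup f) = 0
  /-- All the trees of a list are valid. -/
  def GoodL : PL → ℕ → Prop
    | .nil, _ => True
    | .cons t r, M => Good t M ∧ GoodL r M
end

mutual
  /-- Depth of a tree: number of claims along the longest line. -/
  def dep : PT → ℕ
    | .leaf .. => 1
    | .node _ f r => max (dep f) (depL r) + 1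
  /-- Maximal depth in a list. -/
  def depL : PL → ℕ
    | .nil => 0
    | .cons t r => max (dep t) (depL r)
end

theorem testBit_eq_false_of_land {M c : ℕ} (h : Nat.land (Nat.shiftRight M c) 1 = 0) :
    M.testBit c = false := by
  have h1 : (M >>> c) &&& 1 = 0 := h
  have : M.testBit c = ((M >>> c) &&& 1 != 0) := by
    simp [Nat.testBit]
  rw [this, h1]; rfl

theorem shiftLeft_one (c : ℕ) : Nat.shiftLeft 1 c = 2 ^ c := by
  have : (1 <<< c) = 2 ^ c := by simp [Nat.shiftLeft_eq]
  exact this

mutual
  theorem chkT_spec (tab : MT) (ht : tab.ok = true) : ∀ (t : PT) (M n s : ℕ),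
      chkT tab t M n = s + 1 → s = sup t ∧ Good t M ∧ dep t ≤ n
    | .leaf c j, M, n, s, h => by
      rw [chkT_leaf] at h
      cases n with
      | zero => simp only [nrz] at h; omega
      | succ n =>
        simp only [nrs] at h
        cases hb : Nat.land (Nat.shiftRight M c) 1 with
        | succ k => rw [hb] at h; simp only [nrs] at h; omega
        | zero =>
          rw [hb] at h
          simp only [nrz] at h
          cases hq : Nat.beq (Nat.land (Nat.lor M (Nat.shiftLeft 1 c)) (tab.get j)) (tab.get j) with
          | false => rw [hq] at h; simp only [brf] at h; omega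
          | true =>
            rw [hq] at h
            simp only [brt, Nat.succ_eq_add_one, Nat.add_right_cancel_iff] at h
            refine ⟨?_, ⟨testBit_eq_false_of_land hb, tab.get j, MT.get_ok tab ht j, ?_⟩, ?_⟩
            · rw [sup, ← shiftLeft_one]; exact h.symm
            · intro i hi
              have h1 : (M ||| 2 ^ c) &&& tab.get j = tab.get j := by
                rw [← shiftLeft_one]; exact Nat.eq_of_beq_eq_true hq
              rw [← h1] at hi
              simp only [Nat.testBit_and, Bool.and_eq_true] at hi
              exact hi.1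
            · simp [dep]
    | .node c f r, M, n, s, h => by
      rw [chkT_node] at h
      cases n with
      | zero => simp only [nrz] at h; omega
      | succ n =>
        simp only [nrs] at h
        cases hb : Nat.land (Nat.shiftRight M c) 1 with
        | succ k => rw [hb] at h; simp only [nrs] at h; omega
        | zero =>
          rw [hb] at h
          simp only [nrz] at h
          have hM := rec_force (Nat.lor M (Nat.shiftLeft 1 c)) (fun M' =>
            (Nat.rec 0 (fun s _ => Nat.rec 0 (fun u _ => Nat.succ (Nat.lor u (Nat.shiftLeft 1 c)))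
              (chkL tab r M' n s s)) (chkT tab f M' n) : ℕ))
          try simp only at hM
          rw [hM] at h
          have hMeq : Nat.lor M (Nat.shiftLeft 1 c) = M ||| 2 ^ c := by
            rw [← shiftLeft_one]; rfl
          rw [hMeq] at h
          cases hf : chkT tab f (M ||| 2 ^ c) n with
          | zero => rw [hf] at h; simp only [nrz] at h; omega
          | succ s0 =>
            rw [hf] at h
            simp only [nrs] at h
            cases hr : chkL tab r (M ||| 2 ^ c) n s0 s0 with
            | zero => rw [hr] at h; simp only [nrz] at h; omega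
            | succ u =>
              rw [hr] at h
              simp only [nrs, Nat.succ_eq_add_one, Nat.add_right_cancel_iff] at h
              obtain ⟨h1, h2, h3⟩ := chkT_spec tab ht f _ n s0 hf
              obtain ⟨h4, h5, h6, h7⟩ := chkL_spec tab ht r _ n s0 s0 u hr
              subst h1
              refine ⟨?_, ?_, ?_⟩
              · rw [sup, ← h4, ← shiftLeft_one]; exact h.symm
              · exact ⟨testBit_eq_false_of_land hb, h2, h5, h6⟩
              · simp only [dep]; omega
  theorem chkL_spec (tab : MT) (ht : tab.ok = true) : ∀ (r : PL) (M n I U u : ℕ),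
      chkL tab r M n I U = u + 1 → u = supL r U ∧ GoodL r M ∧ interL r I = 0 ∧ depL r ≤ n
    | .nil, M, n, I, U, u, h => by
      rw [chkL_nil] at h
      cases I with
      | zero =>
        simp only [nrz, Nat.succ_eq_add_one, Nat.add_right_cancel_iff] at h
        exact ⟨h.symm, trivial, rfl, by simp [depL]⟩
      | succ k => simp only [nrs] at h; omega
    | .cons t r, M, n, I, U, u, h => by
      rw [chkL_cons] at h
      cases hs : chkT tab t M n with
      | zero => rw [hs] at h; simp only [nrz] at h; omega
      | succ s =>
        rw [hs] at h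
        simp only [nrs] at h
        have e1 := rec_force (Nat.land I s) (fun I' =>
          (Nat.rec (chkL tab r M n I' 0) (fun U' _ => chkL tab r M n I' (Nat.succ U')) (Nat.lor U s) : ℕ))
        try simp only at e1
        rw [e1] at h
        have e2 := rec_force (Nat.lor U s) (fun U' => chkL tab r M n (Nat.land I s) U')
        try simp only at e2
        rw [e2] at h
        obtain ⟨h1, h2, h3⟩ := chkT_spec tab ht t M n s hs
        obtain ⟨h4, h5, h6, h7⟩ := chkL_spec tab ht r M n _ _ u h
        subst h1
        have hI : Nat.land I (sup t) = I &&& sup t := rfl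
        have hU : Nat.lor U (sup t) = U ||| sup t := rfl
        rw [hI] at h6
        rw [hU] at h4
        refine ⟨h4, ⟨h2, h5⟩, h6, ?_⟩
        simp only [depL]; omega
end

/-- The cell claimed at the root of a tree. -/
def head : PT → ℕ
  | .leaf c .. => c
  | .node c .. => c

/-- Selection among the list `r` (default `d`) of the first tree whose support misses the bit `i`. -/
def selL (d : PT) : PL → ℕ → PT
  | .nil, _ => d
  | .cons t r, i => if (sup t).testBit i then selL d r i else t

/-- The subtree after Breaker's reply with index `i`. -/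
def next : PT → ℕ → Option PT
  | .leaf .., _ => none
  | .node _ f r, i => some (if (sup f).testBit i then selL f r i else f)

theorem testBit_supL_of_U : ∀ (r : PL) (U i : ℕ), U.testBit i = true →
    (supL r U).testBit i = true
  | .nil, U, i, h => by simpa [supL] using h
  | .cons t r, U, i, h => by
    simp only [supL]
    apply testBit_supL_of_U r
    simp [h]

theorem head_mem_sup (t : PT) : (sup t).testBit (head t) = true := by
  cases t with
  | leaf c j => simp [sup, head, Nat.testBit_two_pow_self]
  | node c f r =>
    simp [sup, head, Nat.testBit_two_pow_self]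

/-- The chosen subtree: validity and support. -/
theorem selL_spec (d : PT) : ∀ (r : PL) (M i I : ℕ), I.testBit i = true →
    GoodL r M → interL r I = 0 → ∀ (U : ℕ),
    (∃ t, selL d r i = t ∧ Good t M ∧ (sup t).testBit i = false ∧
      (∀ j, (sup t).testBit j = true → (supL r U).testBit j = true) ∧ dep t ≤ depL r)
  | .nil, M, i, I, hI, _, hi, U => by
    simp only [interL] at hi
    subst hi
    simp at hI
  | .cons t r, M, i, I, hI, hr, hi, U => by
    obtain ⟨hg1, hg2⟩ := hr
    simp only [selL, interL] at hi ⊢
    by_cases ht : (sup t).testBit i = true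
    · rw [if_pos ht]
      have hI' : (I &&& sup t).testBit i = true := by simp [hI, ht]
      obtain ⟨t', h1, h2, h3, h4, h5⟩ := selL_spec d r M i (I &&& sup t) hI' hg2 hi (U ||| sup t)
      refine ⟨t', h1, h2, h3, h4, ?_⟩
      simp only [depL]; omega
    · rw [if_neg ht]
      refine ⟨t, rfl, hg1, by simpa using ht, ?_, ?_⟩
      · intro j hj
        simp only [supL]
        apply testBit_supL_of_U
        simp [hj]
      · simp only [depL]; omega

/-- A valid node: the selected subtree is valid, avoids the reply and has smaller support. -/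
theorem next_spec (c : ℕ) (f : PT) (r : PL) (M i : ℕ) (h : Good (.node c f r) M) :
    ∃ t, next (.node c f r) i = some t ∧ Good t (M ||| 2 ^ c) ∧ (sup t).testBit i = false ∧
      (∀ j, (sup t).testBit j = true → (sup (.node c f r)).testBit j = true) ∧
      dep t < dep (.node c f r) := by
  obtain ⟨_, hf, hr, hi⟩ : M.testBit c = false ∧ Good f (M ||| 2 ^ c) ∧ GoodL r (M ||| 2 ^ c) ∧
      interL r (sup f) = 0 := h
  simp only [next, Option.some.injEq, exists_eq_left']
  by_cases hb : (sup f).testBit i = true
  · rw [if_pos hb]
    obtain ⟨t, h1, h2, h3, h4, h5⟩ := selL_spec f r (M ||| 2 ^ c) i (sup f) hb hr hi (sup f)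
    rw [h1]
    refine ⟨h2, h3, ?_, ?_⟩
    · intro j hj
      simp [sup, h4 j hj]
    · simp only [dep]; omega
  · rw [if_neg hb]
    refine ⟨hf, by simpa using hb, ?_, ?_⟩
    · intro j hj
      simp only [sup, Nat.testBit_or, Bool.or_eq_true]
      exact Or.inl (testBit_supL_of_U r _ j hj)
    · simp only [dep]; omega

theorem dep_pos : ∀ t : PT, 1 ≤ dep t
  | .leaf .. => by simp [dep]
  | .node .. => by simp [dep]

/-! ### The play against a reply sequence -/

/-- The position after a list of replies. -/
def go (t : PT) : List (ℤ × ℤ) → Option PT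
  | [] => some t
  | r :: rs => (next t (idx r)).bind fun t' => go t' rs

theorem go_append (t : PT) (l : List (ℤ × ℤ)) (r : ℤ × ℤ) :
    go t (l ++ [r]) = (go t l).bind fun t' => next t' (idx r) := by
  induction l generalizing t with
  | nil => simp [go]
  | cons a l ih =>
    simp only [List.cons_append, go]
    cases next t (idx a) with
    | none => simp
    | some t' => simpa using ih t'

/-- An index beyond all the earlier replies and the tree. -/
def fresh (S : ℕ) (l : List (ℤ × ℤ)) : ℕ :=
  S + l.length + (l.map idx).sum

/-- Maker's policy obtained from a proof tree. -/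
def policy (T : PT) (l : List (ℤ × ℤ)) : ℤ × ℤ :=
  match go T l with
  | some t => cell (head t)
  | none => cell (fresh (sup T) l)

section Play

variable (T : PT) (b : ℕ → ℤ × ℤ)

/-- The replies before time `k`. -/
def reps (k : ℕ) : List (ℤ × ℤ) := (List.range k).map b

theorem reps_succ (k : ℕ) : reps b (k + 1) = reps b k ++ [b k] := by
  simp [reps, List.range_succ]

/-- The position at time `k`. -/
def st (k : ℕ) : Option PT := go T (reps b k)

theorem st_zero : st T b 0 = some T := by simp [st, reps, go]

theorem st_succ (k : ℕ) : st T b (k + 1) = (st T b k).bind fun t => next t (idx (b k)) := by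
  simp [st, reps_succ, go_append]

theorem makerClaim_eq (k : ℕ) : makerClaim (policy T) b k =
    match st T b k with
    | some t => cell (head t)
    | none => cell (fresh (sup T) (reps b k)) := by
  simp only [makerClaim, policy, st, reps]

/-- Maker's mask before time `k`. -/
def Mk : ℕ → ℕ
  | 0 => 0
  | k + 1 =>
    match st T b k with
    | some t => Mk k ||| 2 ^ head t
    | none => Mk k

theorem st_none_of_le {j k : ℕ} (hjk : j ≤ k) (h : st T b j = none) : st T b k = none := by
  induction k, hjk using Nat.le_induction with
  | base => exact h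
  | succ k _ ih => simp [st_succ, ih]

/-- The invariant of the play. -/
structure Inv (k : ℕ) (t : PT) : Prop where
  good : Good t (Mk T b k)
  avoid : ∀ i, i < k → (sup t).testBit (idx (b i)) = false
  sub : ∀ j, (sup t).testBit j = true → (sup T).testBit j = true
  dp : k + dep t ≤ dep T
  masks : ∀ j, (Mk T b k).testBit j = true ↔
    ∃ i, i < k ∧ ∃ t', st T b i = some t' ∧ head t' = j

theorem inv_of_st (h : Good T 0) : ∀ (k : ℕ) (t : PT), st T b k = some t → Inv T b k t := by
  intro k
  induction k with
  | zero =>
    intro t ht
    rw [st_zero] at ht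
    cases ht
    exact ⟨h, by simp, fun j hj => hj, by simp, by simp [Mk]⟩
  | succ k ih =>
    intro t ht
    rw [st_succ] at ht
    cases hk : st T b k with
    | none => simp [hk] at ht
    | some t0 =>
      simp only [hk, Option.bind_some] at ht
      have hI := ih t0 hk
      cases t0 with
      | leaf c j => simp [next] at ht
      | node c f r =>
        obtain ⟨t1, h1, h2, h3, h4, h5⟩ := next_spec c f r (Mk T b k) (idx (b k)) hI.good
        rw [h1] at ht
        cases ht
        have hMk : Mk T b (k + 1) = Mk T b k ||| 2 ^ c := by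
          simp [Mk, hk, head]
        refine ⟨?_, ?_, ?_, ?_, ?_⟩
        · rw [hMk]; exact h2
        · intro i hi
          rcases Nat.lt_succ_iff_lt_or_eq.mp hi with hi | rfl
          · have h6 := hI.avoid i hi
            cases hb : (sup t).testBit (idx (b i)) with
            | false => rfl
            | true =>
              have h7 := h4 _ hb
              simp_all
          · exact h3
        · intro j hj
          exact hI.sub j (h4 j hj)
        · have := hI.dp
          omega
        · intro j
          rw [hMk, Nat.testBit_or, Bool.or_eq_true, hI.masks, Nat.testBit_two_pow, decide_eq_true_eq]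
          constructor
          · rintro (⟨i, hi, t', h', h''⟩ | rfl)
            · exact ⟨i, by omega, t', h', h''⟩
            · exact ⟨k, by omega, _, hk, rfl⟩
          · rintro ⟨i, hi, t', h', h''⟩
            rcases Nat.lt_succ_iff_lt_or_eq.mp hi with hi | rfl
            · exact Or.inl ⟨i, hi, t', h', h''⟩
            · right
              rw [hk] at h'
              cases h'
              simpa [head] using h''

/-- Either the play has reached a leaf before time `K + n`, or ... -/
theorem exists_leaf (h : Good T 0) : ∃ K, K < dep T ∧ ∃ c j,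
    st T b K = some (.leaf c j) := by
  have key : ∀ n k t, st T b k = some t → k + n = dep T → dep t ≤ n →
      ∃ K, K < dep T ∧ ∃ c j, st T b K = some (.leaf c j) := by
    intro n
    induction n with
    | zero =>
      intro k t _ _ h3
      have := dep_pos t
      omega
    | succ n ih =>
      intro k t h1 h2 h3
      cases t with
      | leaf c j =>
        exact ⟨k, by omega, c, j, h1⟩
      | node c f r =>
        have hI := inv_of_st T b h k _ h1
        obtain ⟨t1, h5, _, _, _, h6⟩ := next_spec c f r (Mk T b k) (idx (b k)) hI.good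
        refine ih (k + 1) t1 ?_ (by omega) (by omega)
        rw [st_succ, h1]
        simpa using h5
  exact key (dep T) 0 T (st_zero T b) (by omega) le_rfl

/-- Indices of the tree are smaller than the mask of its support. -/
theorem lt_of_testBit {x i : ℕ} (h : x.testBit i = true) : i < x := by
  have h1 : x ≥ 2 ^ i := Nat.ge_two_pow_of_testBit h
  have h2 : i < 2 ^ i := Nat.lt_two_pow_self
  omega

theorem fresh_succ (k : ℕ) : fresh (sup T) (reps b (k + 1)) =
    fresh (sup T) (reps b k) + 1 + idx (b k) := by
  simp only [fresh, reps_succ, List.length_append, List.map_append, List.sum_append,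
    List.length_singleton, List.map_cons, List.map_nil, List.sum_cons, List.sum_nil]
  omega

theorem fresh_lt_fresh {j k : ℕ} (hjk : j < k) :
    fresh (sup T) (reps b j) < fresh (sup T) (reps b k) := by
  induction k, hjk using Nat.le_induction with
  | base => rw [fresh_succ]; omega
  | succ k _ ih => rw [fresh_succ]; omega

theorem idx_lt_fresh {j k : ℕ} (hjk : j < k) :
    idx (b j) < fresh (sup T) (reps b k) := by
  induction k, hjk using Nat.le_induction with
  | base => rw [fresh_succ]; omega
  | succ k _ ih => rw [fresh_succ]; omega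

theorem sup_le_fresh (k : ℕ) : sup T ≤ fresh (sup T) (reps b k) := by
  simp only [fresh]; omega

theorem good_head : ∀ (t : PT) (M : ℕ), Good t M → M.testBit (head t) = false
  | .leaf .., _, h => h.1
  | .node .., _, h => h.1

/-- Main theorem on a checked tree. -/
theorem main_of_good (h : Good T 0) (hd : dep T ≤ 21) :
    (∀ k : ℕ, k ≤ 20 →
        (∀ j : ℕ, j < k → makerClaim (policy T) b k ≠ makerClaim (policy T) b j) ∧
        (∀ j : ℕ, j < k → makerClaim (policy T) b k ≠ b j)) ∧
      ContainsCopy {c | ∃ j : ℕ, j ≤ 20 ∧ c = makerClaim (policy T) b j} := by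
  constructor
  · intro k _
    cases hk : st T b k with
    | some t =>
      have hI := inv_of_st T b h k t hk
      constructor
      · intro j hj
        cases hj' : st T b j with
        | none =>
          have := st_none_of_le T b hj.le hj'
          simp_all
        | some t' =>
          rw [makerClaim_eq, makerClaim_eq, hk, hj']
          intro heq
          have h1 := cell_injective heq
          have h2 := good_head t _ hI.good
          have h3 := (hI.masks (head t')).2 ⟨j, hj, t', hj', rfl⟩
          rw [h1] at h2
          simp_all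
      · intro j hj heq
        rw [makerClaim_eq, hk] at heq
        have h1 : idx (b j) = head t := by rw [← heq, idx_cell]
        have h2 := hI.avoid j hj
        rw [h1, head_mem_sup] at h2
        exact Bool.noConfusion h2
    | none =>
      constructor
      · intro j hj
        rw [makerClaim_eq, makerClaim_eq, hk]
        cases hj' : st T b j with
        | none =>
          intro heq
          have h1 := cell_injective heq
          have h2 := fresh_lt_fresh T b hj
          omega
        | some t' =>
          intro heq
          have h1 := cell_injective heq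
          have hI := inv_of_st T b h j t' hj'
          have h2 : (sup T).testBit (head t') = true := hI.sub _ (head_mem_sup t')
          have h3 := lt_of_testBit h2
          have h4 := sup_le_fresh T b k
          simp only at heq h1
          omega
      · intro j hj heq
        rw [makerClaim_eq, hk] at heq
        have h1 : idx (b j) = fresh (sup T) (reps b k) := by rw [← heq, idx_cell]
        have h2 := idx_lt_fresh T b hj
        omega
  · obtain ⟨K, hK, c, j, hst⟩ := exists_leaf T b h
    have hI := inv_of_st T b h K _ hst
    obtain ⟨_, m, ⟨tx, ty, e1, e2, sw, he1, he2, hall⟩, hmM⟩ : (Mk T b K).testBit c = false ∧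
      ∃ m, CopyMask m ∧ ∀ i, m.testBit i = true → (Mk T b K ||| 2 ^ c).testBit i = true := hI.good
    have key : ∀ p ∈ snaky, copyCell tx ty e1 e2 sw p ∈
        {c | ∃ j : ℕ, j ≤ 20 ∧ c = makerClaim (policy T) b j} := by
      intro p hp
      have h1 := hmM _ (hall p (mem_snakyL.1 hp))
      rw [Nat.testBit_or, Bool.or_eq_true] at h1
      rcases h1 with h1 | h1
      · obtain ⟨i, hi, t', hi', hh⟩ := (hI.masks _).1 h1
        refine ⟨i, by omega, ?_⟩
        rw [makerClaim_eq, hi']
        show _ = cell (head t')
        rw [hh, cell_idx]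
      · rw [Nat.testBit_two_pow, decide_eq_true_eq] at h1
        refine ⟨K, by omega, ?_⟩
        rw [makerClaim_eq, hst]
        show _ = cell c
        rw [h1, cell_idx]
    refine ⟨(tx, ty), e1, e2, he1, he2, ?_⟩
    cases sw with
    | true =>
      right
      intro p hp
      simpa [copyCell] using key p hp
    | false =>
      left
      intro p hp
      simpa [copyCell] using key p hp

end Play

/-- The statement follows from a successful kernel check. -/
theorem main_of_chk (tab : MT) (ht : tab.ok = true) (T : PT) (h1 : chkT tab T 0 21 ≠ 0)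
    (b : ℕ → ℤ × ℤ) :
    (∀ k : ℕ, k ≤ 20 →
        (∀ j : ℕ, j < k → makerClaim (policy T) b k ≠ makerClaim (policy T) b j) ∧
        (∀ j : ℕ, j < k → makerClaim (policy T) b k ≠ b j)) ∧
      ContainsCopy {c | ∃ j : ℕ, j ≤ 20 ∧ c = makerClaim (policy T) b j} := by
  obtain ⟨s, hs⟩ := Nat.exists_eq_succ_of_ne_zero h1
  obtain ⟨_, h2, h3⟩ := chkT_spec tab ht T 0 21 s hs
  exact main_of_good T b h2 h3

end Crest.Agent.S0047Lib
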