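import Crest.Agent.S0047Lib.Core
import Crest.Agent.S0047Lib.Tab
import Crest.Agent.S0047Lib.M0
import Crest.Agent.S0047Lib.M1
import Crest.Agent.S0047Lib.M2
set_option autoImplicit false
set_option maxRecDepth 100000
set_option maxHeartbeats 0
namespace Crest.Agent.S0047Lib.Cert
open Crest.Agent.S0047Lib
noncomputable def T0 : PT := PT.node (nat_lit 0) K0 (PL.cons K1 (PL.cons K2 (PL.cons K3 (PL.cons K4 (PL.cons K5 (PL.cons K6 (PL.cons K7 (PL.cons K8 (PL.cons K9 (PL.cons K10 (PL.cons K11 (PL.cons K12 (PL.cons K13 (PL.cons K14 (PL.cons K15 (PL.cons K16 (PL.cons K17 (PL.cons K18 (PL.cons K19 (PL.cons K20 (PL.cons K21 (PL.cons K22 (PL.cons K23 (PL.cons K24 (PL.cons K25 (PL.cons K26 (PL.cons K27 (PL.cons K28 (PL.cons K29 (PL.cons K30 (PL.cons K31 (PL.cons K32 (PL.cons K33 (PL.cons K34 (PL.cons K35 (PL.cons K36 (PL.cons K37 (PL.cons K38 (PL.cons K39 PL.nil)))))))))))))))))))))))))))))))))))))))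
theorem chk0 : chkT tab T0 0 21 ≠ 0 := by decide +kernel
end Crest.Agent.S0047Lib.Cert
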