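import Crest.Agent.S0047Lib.Core
/-! A small tactic that builds a certificate tree `PT` from a compact string of numbers.
It only constructs the term; the kernel checks everything. String format (space separated):
a tree is `0 c j` (leaf) or `k c t₁ … t_k` with `k ≥ 1` subtrees. -/
set_option autoImplicit false
namespace Crest.Agent.S0047Lib

/-- Parse a tree starting at token `i`; returns the term and the next position. -/
partial def parseTree (toks : Array Nat) (i : Nat) : Lean.Expr × Nat :=
  let k := toks[i]!
  let c := Lean.mkRawNatLit toks[i+1]!
  if k == 0 then
    (Lean.mkApp2 (Lean.mkConst ``PT.leaf) c (Lean.mkRawNatLit toks[i+2]!), i + 3)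
  else
    let (f, i1) := parseTree toks (i + 2)
    let rec kids (n : Nat) (i : Nat) (acc : Array Lean.Expr) : Array Lean.Expr × Nat :=
      if n == 0 then (acc, i) else
        let (t, j) := parseTree toks i
        kids (n - 1) j (acc.push t)
    let (ts, i2) := kids (k - 1) i1 #[]
    let r := ts.foldr (fun t acc => Lean.mkApp2 (Lean.mkConst ``PL.cons) t acc) (Lean.mkConst ``PL.nil)
    (Lean.mkApp3 (Lean.mkConst ``PT.node) c f r, i2)

/-- Close a goal `PT` with the tree encoded by the string. -/
elab "mk_pt! " s:str : tactic => do
  let str := s.getString
  let toks := ((str.splitOn " ").filter (· != "")).toArray.map String.toNat!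
  let (e, _) := parseTree toks 0
  let g ← Lean.Elab.Tactic.getMainGoal
  g.assign e
  Lean.Elab.Tactic.replaceMainGoal []

end Crest.Agent.S0047Lib
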